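import Mathlib

/-!
# Hecke operators as finite sums of slashes

An abstract lemma (sum over representatives of a double coset), the representatives
`[1, j; 0, p]` and `[p, 0; 0, 1]`, and the operators on cusp forms for `Gamma0 N`.
-/

open scoped ModularForm MatrixGroups Manifold
open UpperHalfPlane Matrix CongruenceSubgroup

noncomputable section

namespace Vale.Agent.P004H.H181

/-- right cosets are permuted -/
structure Reps {ι : Type} (Γ : Subgroup (GL (Fin 2) ℝ)) (β : ι → GL (Fin 2) ℝ) : Prop where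
  ex : ∀ i, ∀ γ ∈ Γ, ∃ j, ∃ γ' ∈ Γ, β i * γ = γ' * β j
  uniq : ∀ i j, ∀ γ ∈ Γ, β i = γ * β j → i = j

theorem sum_slash_inv {ι : Type} [Fintype ι] {Γ : Subgroup (GL (Fin 2) ℝ)}
    {β : ι → GL (Fin 2) ℝ} (H : Reps Γ β) {k : ℤ} {f : ℍ → ℂ}
    (hf : ∀ γ ∈ Γ, f ∣[k] γ = f) (γ : GL (Fin 2) ℝ) (hγ : γ ∈ Γ) :
    (∑ i, f ∣[k] β i) ∣[k] γ = ∑ i, f ∣[k] β i := by
  classical
  choose σ g hg hσ using fun i => H.ex i γ hγ
  have e1 : ∀ i, (f ∣[k] β i) ∣[k] γ = f ∣[k] β (σ i) := by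
    intro i
    rw [← SlashAction.slash_mul, hσ, SlashAction.slash_mul, hf _ (hg i)]
  have inj : Function.Injective σ := by
    intro i j h
    refine H.uniq i j (g i * (g j)⁻¹) (Γ.mul_mem (hg i) (Γ.inv_mem (hg j))) ?_
    have h1 := hσ i
    have h2 := hσ j
    rw [h] at h1
    calc β i = β i * γ * γ⁻¹ := by group
      _ = g i * β (σ j) * γ⁻¹ := by rw [h1]
      _ = g i * (g j)⁻¹ * (g j * β (σ j)) * γ⁻¹ := by group
      _ = g i * (g j)⁻¹ * (β j * γ) * γ⁻¹ := by rw [h2]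
      _ = g i * (g j)⁻¹ * β j := by group
  have bij : Function.Bijective σ := Finite.injective_iff_bijective.1 inj
  rw [SlashAction.sum_slash]
  simp_rw [e1]
  exact (Equiv.ofBijective σ bij).sum_comp (fun i => f ∣[k] β i)

theorem isCusp_smul_rat {Γ : Subgroup (GL (Fin 2) ℝ)} [Γ.IsArithmetic] {c : OnePoint ℝ}
    (hc : IsCusp c Γ) (g : GL (Fin 2) ℚ) :
    IsCusp ((g.map (algebraMap ℚ ℝ)) • c) Γ := by
  rw [Subgroup.IsArithmetic.isCusp_iff_isCusp_SL2Z, isCusp_SL2Z_iff] at hc ⊢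
  obtain ⟨q, rfl⟩ := hc
  refine ⟨g • q, ?_⟩
  exact OnePoint.map_smul (algebraMap ℚ ℝ) g q

/-- the operator on cusp forms -/
def heckeSum {ι : Type} [Fintype ι] (Γ : Subgroup (GL (Fin 2) ℝ)) [Γ.IsArithmetic]
    (β : ι → GL (Fin 2) ℚ) (H : Reps Γ (fun i => (β i).map (algebraMap ℚ ℝ))) {k : ℤ}
    (f : CuspForm Γ k) : CuspForm Γ k where
  toFun := ∑ i, (f : ℍ → ℂ) ∣[k] ((β i).map (algebraMap ℚ ℝ))
  slash_action_eq' γ hγ := sum_slash_inv H (fun γ hγ => f.slash_action_eq' γ hγ) γ hγ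
  holo' := by
    refine MDifferentiable.sum fun i _ => ?_
    exact f.holo'.slash k _
  zero_at_cusps' {c} hc := by
    intro γ hγ
    rw [IsZeroAtImInfty, Filter.ZeroAtFilter, SlashAction.sum_slash, Finset.sum_fn]
    rw [show (0 : ℂ) = ∑ i : ι, 0 by simp]
    refine tendsto_finsetSum _ fun i _ => ?_
    have h1 := f.zero_at_cusps' (isCusp_smul_rat hc (β i))
    exact OnePoint.IsZeroAt.smul_iff.1 h1 γ hγ

end Vale.Agent.P004H.H181
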