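import Vale.Agent.P004H.H181.N1a
import Vale.Agent.P004E.H628.Mf

/-!
# The Rankin-Selberg coefficients and the squarefree function: local identities
-/

open Real Finset

namespace Vale.Agent.P004H.H181

open ArithmeticFunction P004.PSav

/-- `a(n)² / n` -/
noncomputable def L2 (a : ℕ → ℤ) : ArithmeticFunction ℝ := ⟨fun n => (a n : ℝ) ^ 2 / n, by simp⟩

lemma L2_apply (a : ℕ → ℤ) (n : ℕ) : L2 a n = (a n : ℝ) ^ 2 / n := rfl

open scoped Classical in
/-- indicator of the positive squares -/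
noncomputable def sqI : ArithmeticFunction ℝ :=
  ⟨fun n => if n ≠ 0 ∧ ∃ m, n = m ^ 2 then 1 else 0, by simp⟩

open scoped Classical in
lemma sqI_apply (n : ℕ) : sqI n = if n ≠ 0 ∧ ∃ m, n = m ^ 2 then 1 else 0 := rfl

/-- the coefficients of `ζ(2s) ∑ λ(n)² n^{-s}` -/
noncomputable def ball (a : ℕ → ℤ) (k : ℕ) : ℝ :=
  ∑ n ∈ (Finset.Icc 1 k).filter (fun n => n ^ 2 ∣ k),
      (a (k / n ^ 2) : ℝ) ^ 2 / ((k / n ^ 2 : ℕ) : ℝ)

lemma ball_eq (a : ℕ → ℤ) (k : ℕ) : (sqI * L2 a) k = ball a k := by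
  classical
  rcases Nat.eq_zero_or_pos k with rfl | hk
  · rw [ArithmeticFunction.map_zero, ball]; simp
  rw [mul_apply, ball]
  symm
  apply sum_bij_ne_zero (fun n _ _ => (n ^ 2, k / n ^ 2))
  · intro n hn _
    rw [mem_filter, mem_Icc] at hn
    rw [Nat.mem_divisorsAntidiagonal]
    exact ⟨Nat.mul_div_cancel' hn.2, hk.ne'⟩
  · intro n hn _ m hm _ h
    have h1 := (Prod.mk.inj h).1
    exact Nat.pow_left_injective (n := 2) (by norm_num) h1
  · intro x hx h0
    rw [Nat.mem_divisorsAntidiagonal] at hx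
    have h1 : sqI x.1 ≠ 0 := left_ne_zero_of_mul h0
    rw [sqI_apply] at h1
    have h2 : x.1 ≠ 0 ∧ ∃ m, x.1 = m ^ 2 := by
      by_contra h
      rw [if_neg h] at h1
      exact h1 rfl
    obtain ⟨h3, m, hm⟩ := h2
    have hm0 : m ≠ 0 := by
      rintro rfl
      exact h3 (by rw [hm]; norm_num)
    have hdv : m ^ 2 ∣ k := ⟨x.2, by rw [← hm, hx.1]⟩
    have hx2 : k / m ^ 2 = x.2 := by
      rw [← hx.1, hm]
      exact Nat.mul_div_cancel_left _ (by positivity)
    refine ⟨m, ?_, ?_, ?_⟩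
    · rw [mem_filter, mem_Icc]
      refine ⟨⟨Nat.pos_of_ne_zero hm0, ?_⟩, hdv⟩
      have h4 := Nat.le_of_dvd hk hdv
      nlinarith [Nat.pos_of_ne_zero hm0]
    · rw [hx2]
      have h5 : L2 a x.2 ≠ 0 := right_ne_zero_of_mul h0
      rwa [L2_apply] at h5
    · rw [hx2, ← hm]
  · intro n hn _
    rw [mem_filter, mem_Icc] at hn
    have : sqI (n ^ 2) = 1 := by
      rw [sqI_apply, if_pos]
      exact ⟨pow_ne_zero 2 (by omega), n, rfl⟩
    rw [this, one_mul, L2_apply]

lemma sqI_mult : IsMultiplicative sqI := by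
  classical
  constructor
  · rw [sqI_apply, if_pos ⟨one_ne_zero, 1, by norm_num⟩]
  · intro m n h
    rw [sqI_apply, sqI_apply, sqI_apply]
    by_cases hm : m ≠ 0 ∧ ∃ k, m = k ^ 2
    · by_cases hn : n ≠ 0 ∧ ∃ k, n = k ^ 2
      · obtain ⟨hm0, k, rfl⟩ := hm
        obtain ⟨hn0, l, rfl⟩ := hn
        rw [if_pos ⟨mul_ne_zero hm0 hn0, k * l, by ring⟩, if_pos ⟨hm0, k, rfl⟩,
          if_pos ⟨hn0, l, rfl⟩, one_mul]
      · rw [if_neg hn, mul_zero, if_neg]
        rintro ⟨h0, c, hc⟩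
        refine hn ⟨right_ne_zero_of_mul h0, ?_⟩
        rw [mul_comm] at hc
        exact exists_eq_pow_of_mul_eq_pow (by
          rw [Nat.isUnit_iff]; exact h.symm) hc
    · rw [if_neg hm, zero_mul, if_neg]
      rintro ⟨h0, c, hc⟩
      refine hm ⟨left_ne_zero_of_mul h0, ?_⟩
      exact exists_eq_pow_of_mul_eq_pow (by
          rw [Nat.isUnit_iff]; exact h) hc

lemma sqI_pp {p : ℕ} (hp : p.Prime) (k : ℕ) : sqI (p ^ k) = if Even k then 1 else 0 := by
  classical
  rw [sqI_apply]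
  congr 1
  apply propext
  constructor
  · rintro ⟨-, m, hm⟩
    have h1 := congrArg (fun n => n.factorization p) hm
    simp only [Nat.factorization_pow, Finsupp.smul_apply, hp.factorization_self, smul_eq_mul,
      mul_one] at h1
    exact ⟨m.factorization p, by omega⟩
  · rintro ⟨m, rfl⟩
    exact ⟨pow_ne_zero _ hp.ne_zero, p ^ m, by rw [← pow_mul]; congr 1; ring⟩

open PowerSeries in
lemma ser_sqI {p : ℕ} (hp : p.Prime) : ser sqI p * (1 - X ^ 2) = 1 := by
  ext k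
  have e : ser sqI p * (1 - X ^ 2) = ser sqI p - ser sqI p * X * X := by ring
  rw [e, map_sub, coeff_one]
  rcases k with _ | _ | k
  · rw [coeff_zero_mul_X]
    simp only [ser, coeff_mk]
    rw [sqI_pp hp]
    simp
  · rw [coeff_succ_mul_X, coeff_zero_mul_X]
    simp only [ser, coeff_mk]
    rw [sqI_pp hp]
    simp
  · rw [coeff_succ_mul_X, coeff_succ_mul_X]
    simp only [ser, coeff_mk]
    rw [sqI_pp hp, sqI_pp hp, if_neg (show ¬ (k + 1 + 1 = 0) by omega)]
    have : Even (k + 1 + 1) ↔ Even k := by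
      rw [show k + 1 + 1 = k + 2 by ring, Nat.even_add]
      simp
    simp [this]

/-- the real Moebius function -/
noncomputable def muR : ArithmeticFunction ℝ := ((moebius : ArithmeticFunction ℤ) : ArithmeticFunction ℝ)

lemma muR_apply (n : ℕ) : muR n = (moebius n : ℝ) := by
  rw [muR, intCoe_apply]

lemma muR_mult : IsMultiplicative muR := isMultiplicative_moebius.intCast

open PowerSeries in
lemma ser_muR {p : ℕ} (hp : p.Prime) : ser muR p = 1 - X := by
  ext k
  rw [map_sub, coeff_one, coeff_X]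
  simp only [ser, coeff_mk]
  rw [muR_apply]
  rcases k with _ | _ | k
  · simp
  · rw [moebius_apply_prime_pow hp (by norm_num)]
    simp
  · rw [moebius_apply_prime_pow hp (by omega), if_neg (by omega)]
    simp

/-- the relations used here -/
structure Rl (a : ℕ → ℤ) : Prop where
  one : a 1 = 1
  mul : ∀ m n : ℕ, m.Coprime n → a (m * n) = a m * a n
  hec : ∀ p : ℕ, p.Prime → p ≠ 11 → ∀ k : ℕ,
    a (p ^ (k + 2)) = a p * a (p ^ (k + 1)) - p * a (p ^ k)
  el : ∀ k : ℕ, (a (11 ^ k)) ^ 2 = 1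

lemma L2_mult {a : ℕ → ℤ} (H : Rl a) : IsMultiplicative (L2 a) := by
  constructor
  · rw [L2_apply, H.one]; norm_num
  · intro m n h
    rw [L2_apply, L2_apply, L2_apply, H.mul m n h]
    push_cast
    rw [mul_pow, mul_div_mul_comm]

/-- `λ_p² - 2` -/
noncomputable def rq (a : ℕ → ℤ) (p : ℕ) : ℝ := (a p : ℝ) ^ 2 / p - 2

open PowerSeries in
lemma ser_L2 {a : ℕ → ℤ} (H : Rl a) {p : ℕ} (hp : p.Prime) (h11 : p ≠ 11) :
    ser (L2 a) p * ((1 - X) * (1 - C (rq a p) * X + X ^ 2)) = 1 + X := by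
  have hp0 : (p : ℝ) ≠ 0 := by exact_mod_cast hp.ne_zero
  set t : ℝ := (a p : ℝ) ^ 2 / p - 1 with ht
  have hr : rq a p = t - 1 := by rw [rq, ht]; ring
  have e1 : (1 - X) * (1 - C (rq a p) * X + X ^ 2) =
      (1 - C t * X + C t * X ^ 2 - X ^ 3 : PowerSeries ℝ) := by
    rw [hr, map_sub, map_one]; ring
  rw [e1]
  have c0 : L2 a (p ^ 0) = 1 := by rw [L2_apply, pow_zero, H.one]; norm_num
  have c1 : L2 a (p ^ 1) = t + 1 := by rw [L2_apply, pow_one, ht]; ring
  have crec : ∀ k, L2 a (p ^ (k + 3)) = t * L2 a (p ^ (k + 2)) - t * L2 a (p ^ (k + 1)) +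
      L2 a (p ^ k) := by
    intro k
    have h1 : (a (p ^ (k + 2)) : ℝ) = a p * a (p ^ (k + 1)) - p * a (p ^ k) := by
      exact_mod_cast H.hec p hp h11 k
    have h2 : (a (p ^ (k + 3)) : ℝ) = a p * a (p ^ (k + 2)) - p * a (p ^ (k + 1)) := by
      exact_mod_cast H.hec p hp h11 (k + 1)
    simp only [L2_apply]
    push_cast
    rw [h2, ht]
    rw [h1]
    field_simp
    ring
  have c2 : L2 a (p ^ 2) = t ^ 2 := by
    have h1 : (a (p ^ 2) : ℝ) = a p * a (p ^ 1) - p * a (p ^ 0) := by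
      exact_mod_cast H.hec p hp h11 0
    rw [pow_one, pow_zero, H.one] at h1
    rw [L2_apply, h1, ht]
    push_cast
    field_simp
  ext k
  have e : ser (L2 a) p * (1 - C t * X + C t * X ^ 2 - X ^ 3) =
      ser (L2 a) p - C t * (ser (L2 a) p * X) + C t * (ser (L2 a) p * X * X) -
        ser (L2 a) p * X * X * X := by ring
  rw [e, map_sub, map_add, map_sub, map_add, coeff_C_mul, coeff_C_mul, coeff_one, coeff_X]
  rcases k with _ | _ | _ | k
  · rw [coeff_zero_mul_X, coeff_zero_mul_X, coeff_zero_mul_X]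
    simp only [ser, coeff_mk]
    rw [c0]
    simp
  · rw [coeff_succ_mul_X, coeff_succ_mul_X, coeff_succ_mul_X, coeff_zero_mul_X, coeff_zero_mul_X]
    simp only [ser, coeff_mk]
    rw [zero_add, c1, c0]
    simp
  · rw [coeff_succ_mul_X, coeff_succ_mul_X, coeff_succ_mul_X, coeff_succ_mul_X,
      coeff_succ_mul_X, coeff_zero_mul_X]
    simp only [ser, coeff_mk]
    rw [show 0 + 1 + 1 = 2 from rfl, c2, c1, c0]
    simp
    ring
  · rw [coeff_succ_mul_X, coeff_succ_mul_X, coeff_succ_mul_X, coeff_succ_mul_X,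
      coeff_succ_mul_X, coeff_succ_mul_X]
    simp only [ser, coeff_mk]
    rw [show k + 1 + 1 + 1 = k + 3 from rfl, show k + 1 + 1 = k + 2 from rfl, crec]
    rw [if_neg (by omega), if_neg (by omega)]
    ring

open PowerSeries in
lemma ser_L2_el {a : ℕ → ℤ} (H : Rl a) : ser (L2 a) 11 * (1 - C (1 / 11 : ℝ) * X) = 1 := by
  have h : ∀ k, L2 a (11 ^ k) = (1 / 11 : ℝ) ^ k := by
    intro k
    rw [L2_apply]
    have h1 : ((a (11 ^ k) : ℤ) : ℝ) ^ 2 = 1 := by exact_mod_cast H.el k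
    rw [h1]
    push_cast
    rw [one_div_pow]
  apply ser_one
  · rw [h, pow_zero]
  · intro k
    rw [h, h, pow_succ]
    ring

end Vale.Agent.P004H.H181
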