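import Vale.Agent.P004H.H181.Mult
import Vale.Agent.P004H.H181.N1b
import Vale.Agent.P004H.H792.Cusp11
import Vale.Agent.P004H.H833.Dim1

/-!
# The relations of the coefficients of the form of level 11
-/

open UpperHalfPlane CongruenceSubgroup
open scoped MatrixGroups ModularForm

namespace Vale.Agent.P004H.H181

theorem hs11 (τ : ℍ) : HasSum (fun m => (H792.a m : ℂ) • Function.Periodic.qParam 1 τ ^ m) (H792.F11 τ) := by
  rw [H792.F11_apply]
  refine hs_congr (H792.hasSum_F τ) fun m => ?_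
  rw [smul_eq_mul, H792.qq, Function.Periodic.qParam]
  congr 3
  simp

/-- all relations at level `11` -/
theorem all_a : H792.a 0 = 0 ∧ H792.a 1 = 1 ∧
      (∀ m n : ℕ, m.Coprime n → H792.a (m * n) = H792.a m * H792.a n) ∧
      (∀ p : ℕ, p.Prime → p ≠ 11 → ∀ k : ℕ,
        H792.a (p ^ (k + 2)) = H792.a p * H792.a (p ^ (k + 1)) - p * H792.a (p ^ k)) ∧
      (∀ k : ℕ, H792.a (11 ^ k) = H792.a 11 ^ k) ∧
      (∀ n : ℕ, H792.a (11 * n) = H792.a 11 * H792.a n) ∧
      ∀ p : ℕ, p.Prime → p ≠ 11 → |H792.a p| ≤ p + 1 := all11 (a := H792.a) (F := H792.F11) hs11 H792.a_table.2.1 H833.dim1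

theorem a_el (k : ℕ) : H792.a (11 ^ k) = 1 := by
  rw [all_a.2.2.2.2.1 k]
  have : H792.a 11 = 1 := by
    have h := H792.a_table
    simp only [h]
  rw [this, one_pow]

theorem rl11 : Rl H792.a where
  one := H792.a_table.2.1
  mul := all_a.2.2.1
  hec := all_a.2.2.2.1
  el k := by rw [a_el]; norm_num

end Vale.Agent.P004H.H181
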