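import Vale.Agent.P004H.H181.QExp

/-!
# Multiplicativity and the trivial bound, from dimension one
-/

open scoped ModularForm MatrixGroups Manifold
open UpperHalfPlane Matrix CongruenceSubgroup

noncomputable section

namespace Vale.Agent.P004H.H181

/-- `Gamma0 N` inside `GL(2, ℝ)` -/
abbrev GG (N : ℕ) : Subgroup (GL (Fin 2) ℝ) :=
  ((Gamma0 N : Subgroup SL(2, ℤ)) : Subgroup (GL (Fin 2) ℝ))

theorem T_mem (N : ℕ) : ModularGroup.T ∈ Gamma0 N := by
  rw [Gamma0_mem]
  simp [ModularGroup.T]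

theorem one_mem_per (N : ℕ) : (1 : ℝ) ∈ (GG N).strictPeriods := by
  rw [Subgroup.strictPeriods_eq_zmultiples_one_of_T_mem (T_mem N)]
  exact AddSubgroup.mem_zmultiples 1

/-- uniqueness of the coefficients -/
theorem coeff_uniq {N : ℕ} {f : CuspForm (GG N) 2} {b c : ℕ → ℂ}
    (hb : ∀ τ : ℍ, HasSum (fun m => b m • Function.Periodic.qParam 1 τ ^ m) (f τ))
    (hc : ∀ τ : ℍ, HasSum (fun m => c m • Function.Periodic.qParam 1 τ ^ m) (f τ)) (m : ℕ) : b m = c m := by
  rw [ModularFormClass.qExpansion_coeff_unique one_pos (one_mem_per N) hb m,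
    ModularFormClass.qExpansion_coeff_unique one_pos (one_mem_per N) hc m]

/-- The Hecke relations at all primes. -/
structure Hk (N : ℕ) (a : ℕ → ℤ) : Prop where
  zero : a 0 = 0
  one : a 1 = 1
  T : ∀ p : ℕ, p.Prime → ¬ p ∣ N → ∀ n : ℕ,
    a (p * n) + (if p ∣ n then (p : ℤ) * a (n / p) else 0) = a p * a n
  U : ∀ p : ℕ, p.Prime → p ∣ N → ∀ n : ℕ, a (p * n) = a p * a n

theorem hk_of_dim {N : ℕ} [NeZero N] {a : ℕ → ℤ} {F : CuspForm (GG N) 2}
    (ha : ∀ τ : ℍ, HasSum (fun m => (a m : ℂ) • Function.Periodic.qParam 1 τ ^ m) (F τ)) (h1 : a 1 = 1)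
    (hdim : ∀ h : CuspForm (GG N) 2, ∃ c : ℂ, ∀ τ, h τ = c * F τ) : Hk N a where
  zero := by
    have e := ModularFormClass.qExpansion_coeff_unique one_pos (one_mem_per N) ha 0
    rw [CuspFormClass.qExpansion_coeff_zero F one_pos (one_mem_per N)] at e
    exact_mod_cast e
  one := h1
  T := by
    intro p hp hN n
    have : Fact p.Prime := ⟨hp⟩
    obtain ⟨c, hc⟩ := hdim (Tp p hN F)
    have e : ∀ m, (a (p * m) : ℂ) + (if p ∣ m then (p : ℂ) * a (m / p) else 0) = c * a m := by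
      intro m
      refine coeff_uniq (f := Tp p hN F) (c := fun m => c * a m) (hasSum_Tp p hN F ha) (fun τ => ?_) m
      rw [hc]
      exact hs_congr ((ha τ).mul_left c) fun m => by simp only [smul_eq_mul]; ring
    have e1 := e 1
    have hp1 : ¬ p ∣ 1 := fun h => hp.one_lt.ne' (Nat.dvd_one.1 h)
    rw [if_neg hp1, h1, mul_one] at e1
    have e2 := e n
    have e3 : c = a p := by
      simpa using e1.symm
    rw [e3] at e2
    exact_mod_cast e2
  U := by
    intro p hp hN n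
    have : Fact p.Prime := ⟨hp⟩
    obtain ⟨c, hc⟩ := hdim (Up p hN F)
    have e : ∀ m, (a (p * m) : ℂ) = c * a m := by
      intro m
      refine coeff_uniq (f := Up p hN F) (c := fun m => c * a m) (hasSum_Up p hN F ha) (fun τ => ?_) m
      rw [hc]
      exact hs_congr ((ha τ).mul_left c) fun m => by simp only [smul_eq_mul]; ring
    have e1 := e 1
    rw [h1, mul_one] at e1
    have e3 : c = a p := by
      simpa using e1.symm
    have e2 := e n
    rw [e3] at e2
    exact_mod_cast e2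

/-- the bound `|a n| ≤ C n` -/
theorem bound_of_form {N : ℕ} [NeZero N] {a : ℕ → ℤ} {F : CuspForm (GG N) 2}
    (ha : ∀ τ : ℍ, HasSum (fun m => (a m : ℂ) • Function.Periodic.qParam 1 τ ^ m) (F τ)) :
    ∃ C : ℝ, 0 < C ∧ ∀ n : ℕ, |(a n : ℝ)| ≤ C * n := by
  have h := CuspFormClass.qExpansion_isBigO F
  rw [Subgroup.strictWidthInfty_eq_one_of_T_mem (T_mem N)] at h
  have e : ∀ n, (qExpansion 1 F).coeff n = (a n : ℂ) := fun n =>
    (ModularFormClass.qExpansion_coeff_unique one_pos (one_mem_per N) ha n).symm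
  have e0 : (a 0 : ℂ) = 0 := by
    rw [← e 0, CuspFormClass.qExpansion_coeff_zero F one_pos (one_mem_per N)]
  have e0' : a 0 = 0 := by exact_mod_cast e0
  obtain ⟨C, hC⟩ := h.bound
  obtain ⟨n0, hn0⟩ := Filter.eventually_atTop.1 hC
  refine ⟨|C| + 1 + ∑ m ∈ Finset.range n0, |(a m : ℝ)|, by positivity, fun n => ?_⟩
  rcases Nat.eq_zero_or_pos n with h0 | h0
  · rw [h0, e0']; simp
  have hn1 : (1 : ℝ) ≤ n := by exact_mod_cast h0
  have hs : 0 ≤ ∑ m ∈ Finset.range n0, |(a m : ℝ)| := Finset.sum_nonneg fun _ _ => abs_nonneg _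
  rcases lt_or_ge n n0 with h2 | h2
  · have h3 : |(a n : ℝ)| ≤ ∑ m ∈ Finset.range n0, |(a m : ℝ)| :=
      Finset.single_le_sum (f := fun m => |(a m : ℝ)|) (fun _ _ => abs_nonneg _)
        (Finset.mem_range.2 h2)
    have h4 : 0 ≤ |C| := abs_nonneg C
    nlinarith
  · have h3 := hn0 n h2
    rw [e n] at h3
    have h4 : ‖(n : ℝ) ^ (((2 : ℤ) : ℝ) / 2)‖ = n := by
      norm_num
    rw [h4] at h3
    have h5 : ‖((a n : ℤ) : ℂ)‖ = |(a n : ℝ)| := by
      rw [Complex.norm_intCast]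
    rw [h5] at h3
    have h6 : C * n ≤ |C| * n := mul_le_mul_of_nonneg_right (le_abs_self C) (by positivity)
    nlinarith

namespace Hk

variable {N : ℕ} {a : ℕ → ℤ}

theorem pow_T (H : Hk N a) {p : ℕ} (hp : p.Prime) (hN : ¬ p ∣ N) (k : ℕ) :
    a (p ^ (k + 2)) = a p * a (p ^ (k + 1)) - p * a (p ^ k) := by
  have h := H.T p hp hN (p ^ (k + 1))
  have h1 : p ∣ p ^ (k + 1) := dvd_pow_self p (by omega)
  rw [if_pos h1] at h
  have h2 : p ^ (k + 1) / p = p ^ k := by
    rw [pow_succ, Nat.mul_div_cancel _ hp.pos]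
  rw [h2] at h
  have h3 : p * p ^ (k + 1) = p ^ (k + 2) := by ring
  rw [h3] at h
  linarith

theorem pow_U (H : Hk N a) {p : ℕ} (hp : p.Prime) (hN : p ∣ N) (k : ℕ) :
    a (p ^ (k + 1)) = a p * a (p ^ k) := by
  have h := H.U p hp hN (p ^ k)
  rwa [← pow_succ'] at h

theorem mul_pow (H : Hk N a) {p : ℕ} (hp : p.Prime) {n : ℕ} (hn : ¬ p ∣ n) (k : ℕ) :
    a (p ^ k * n) = a (p ^ k) * a n := by
  induction k using Nat.strong_induction_on with
  | _ k ih =>
    by_cases hN : p ∣ N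
    · cases k with
      | zero => simp [H.one]
      | succ k =>
        rw [H.pow_U hp hN, mul_assoc, ← ih k (by omega), ← H.U p hp hN]
        congr 1
        ring
    · match k, ih with
      | 0, _ => simp [H.one]
      | 1, _ =>
        have h := H.T p hp hN n
        rw [if_neg hn] at h
        simpa using h
      | k + 2, ih =>
        have h := H.T p hp hN (p ^ (k + 1) * n)
        have h1 : p ∣ p ^ (k + 1) * n := (dvd_pow_self p (by omega)).mul_right _
        rw [if_pos h1] at h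
        have h2 : p ^ (k + 1) * n / p = p ^ k * n := by
          rw [show p ^ (k + 1) * n = p ^ k * n * p by ring, Nat.mul_div_cancel _ hp.pos]
        have h3 : p * (p ^ (k + 1) * n) = p ^ (k + 2) * n := by ring
        rw [h2, h3, ih k (by omega), ih (k + 1) (by omega)] at h
        rw [H.pow_T hp hN]
        linear_combination h

theorem mul (H : Hk N a) (m n : ℕ) (h : m.Coprime n) : a (m * n) = a m * a n := by
  induction m using Nat.recOnPosPrimePosCoprime generalizing n with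
  | prime_pow p k hp hk =>
    refine H.mul_pow hp ?_ k
    intro h1
    have h2 : p ∣ p ^ k := dvd_pow_self p hk.ne'
    have := Nat.Coprime.eq_one_of_dvd (Nat.Coprime.coprime_dvd_left h2 h) h1
    exact hp.one_lt.ne' this
  | zero =>
    rw [Nat.coprime_zero_left] at h
    rw [h, zero_mul, H.zero, zero_mul]
  | one => rw [one_mul, H.one, one_mul]
  | coprime x y hx hy hxy ihx ihy =>
    have h1 : x.Coprime n := Nat.Coprime.coprime_mul_right h
    have h2 : y.Coprime n := Nat.Coprime.coprime_mul_left h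
    rw [mul_assoc, ihx (y * n) (Nat.Coprime.mul_right hxy h1), ihy n h2, ihx y hxy]
    ring

/-- the trivial bound from polynomial growth -/
theorem trivial_bound (H : Hk N a) {C : ℝ} (hC : ∀ n : ℕ, |(a n : ℝ)| ≤ C * n) {p : ℕ}
    (hp : p.Prime) (hN : ¬ p ∣ N) : |a p| ≤ p + 1 := by
  by_contra hcon
  push Not at hcon
  have hp1 : (1 : ℝ) < p := by exact_mod_cast hp.one_lt
  have hA : (p : ℝ) + 1 < |(a p : ℝ)| := by exact_mod_cast hcon
  -- the larger root
  set A : ℝ := |(a p : ℝ)| with hAdef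
  have hdisc : ((p : ℝ) - 1) ^ 2 < A ^ 2 - 4 * p := by nlinarith
  set s : ℝ := √(A ^ 2 - 4 * p) with hs
  have hs2 : s ^ 2 = A ^ 2 - 4 * p := Real.sq_sqrt (by nlinarith [sq_nonneg ((p : ℝ) - 1)])
  have hs0 : 0 ≤ s := Real.sqrt_nonneg _
  have hsp : (p : ℝ) - 1 < s := by
    by_contra h
    push Not at h
    nlinarith
  obtain ⟨e, he, heA⟩ : ∃ e : ℝ, (e = 1 ∨ e = -1) ∧ (a p : ℝ) = e * A := by
    rcases abs_cases (a p : ℝ) with ⟨h, -⟩ | ⟨h, -⟩
    · exact ⟨1, Or.inl rfl, by rw [hAdef, h]; ring⟩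
    · exact ⟨-1, Or.inr rfl, by rw [hAdef, h]; ring⟩
  have he2 : e ^ 2 = 1 := by rcases he with h | h <;> rw [h] <;> norm_num
  set α : ℝ := e * (A + s) / 2 with hα
  set β : ℝ := e * (A - s) / 2 with hβ
  have hsum : α + β = a p := by rw [heA, hα, hβ]; ring
  have hprod : α * β = p := by
    rw [hα, hβ]
    have : e * (A + s) / 2 * (e * (A - s) / 2) = e ^ 2 * (A ^ 2 - s ^ 2) / 4 := by ring
    rw [this, he2, hs2]
    ring
  have hαabs : (p : ℝ) < |α| := by
    have : |α| = (A + s) / 2 := by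
      rw [hα, abs_div, abs_mul]
      have h1 : |e| = 1 := by rcases he with h | h <;> rw [h] <;> norm_num
      rw [h1, one_mul, abs_of_pos (show (0 : ℝ) < 2 by norm_num), abs_of_nonneg]
      nlinarith
    rw [this]
    linarith
  have hrec : ∀ k : ℕ, (a (p ^ (k + 1)) : ℝ) - β * a (p ^ k) = α ^ (k + 1) := by
    intro k
    induction k with
    | zero =>
      rw [zero_add, pow_one, pow_zero, H.one, pow_one]
      push_cast
      linarith
    | succ k ih =>
      have h := H.pow_T hp hN k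
      have h' : (a (p ^ (k + 2)) : ℝ) = a p * a (p ^ (k + 1)) - p * a (p ^ k) := by
        exact_mod_cast h
      rw [h', show α ^ (k + 1 + 1) = α ^ (k + 1) * α by ring, ← ih, ← hsum, ← hprod]
      ring
  have hC0 : 0 ≤ C := by
    have := hC 1
    rw [H.one] at this
    push_cast at this
    rw [abs_one] at this
    linarith
  have hbd : ∀ k : ℕ, (|α| / p) ^ (k + 1) ≤ C * (1 + |β|) := by
    intro k
    have h1 := hrec k
    have h2 : |α| ^ (k + 1) ≤ C * p ^ (k + 1) + |β| * (C * p ^ k) := by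
      rw [← abs_pow, ← h1]
      refine (abs_sub _ _).trans ?_
      rw [abs_mul]
      have h3 := hC (p ^ (k + 1))
      have h4 := hC (p ^ k)
      push_cast at h3 h4
      gcongr
    have h5 : (p : ℝ) ^ k ≤ p ^ (k + 1) := pow_le_pow_right₀ hp1.le (by omega)
    have h6 : |α| ^ (k + 1) ≤ C * (1 + |β|) * p ^ (k + 1) := by
      have h7 : |β| * (C * p ^ k) ≤ |β| * (C * p ^ (k + 1)) := by gcongr
      calc |α| ^ (k + 1) ≤ C * p ^ (k + 1) + |β| * (C * p ^ k) := h2
        _ ≤ C * p ^ (k + 1) + |β| * (C * p ^ (k + 1)) := by linarith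
        _ = C * (1 + |β|) * p ^ (k + 1) := by ring
    rw [div_pow, div_le_iff₀ (by positivity)]
    exact h6
  have hgt : 1 < |α| / p := by
    rw [lt_div_iff₀ (by linarith)]
    linarith
  obtain ⟨k, hk⟩ := pow_unbounded_of_one_lt (C * (1 + |β|)) hgt
  have h8 := hbd k
  have h9 : (|α| / p) ^ k ≤ (|α| / p) ^ (k + 1) := pow_le_pow_right₀ hgt.le (by omega)
  linarith

end Hk

/-- everything at level `11`, weight two, from dimension one -/
theorem all11 {a : ℕ → ℤ} {F : CuspForm (GG 11) 2}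
    (ha : ∀ τ : ℍ, HasSum (fun m => (a m : ℂ) • Function.Periodic.qParam 1 τ ^ m) (F τ)) (h1 : a 1 = 1)
    (hdim : ∀ h : CuspForm (GG 11) 2, ∃ c : ℂ, ∀ τ, h τ = c * F τ) :
    a 0 = 0 ∧ a 1 = 1 ∧ (∀ m n : ℕ, m.Coprime n → a (m * n) = a m * a n) ∧
      (∀ p : ℕ, p.Prime → p ≠ 11 → ∀ k : ℕ,
        a (p ^ (k + 2)) = a p * a (p ^ (k + 1)) - p * a (p ^ k)) ∧
      (∀ k : ℕ, a (11 ^ k) = a 11 ^ k) ∧
      (∀ n : ℕ, a (11 * n) = a 11 * a n) ∧
      ∀ p : ℕ, p.Prime → p ≠ 11 → |a p| ≤ p + 1 := by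
  have H : Hk 11 a := hk_of_dim ha h1 hdim
  obtain ⟨C, -, hC⟩ := bound_of_form ha
  have h11 : Nat.Prime 11 := by norm_num
  have hne : ∀ p : ℕ, p.Prime → p ≠ 11 → ¬ p ∣ 11 := by
    intro p hp hne h
    exact hne ((Nat.prime_dvd_prime_iff_eq hp h11).1 h)
  refine ⟨H.zero, H.one, H.mul, fun p hp hn k => H.pow_T hp (hne p hp hn) k, ?_,
    H.U 11 h11 dvd_rfl, fun p hp hn => H.trivial_bound hC hp (hne p hp hn)⟩
  intro k
  induction k with
  | zero => simpa using H.one
  | succ k ih => rw [H.pow_U h11 dvd_rfl, ih, pow_succ']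

end Vale.Agent.P004H.H181
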