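import Vale.Agent.P004H.H181.N1c
import Vale.Agent.P004E.Iface

/-!
# The squarefree sum of `λ_p² - 1` with logarithmic saving
-/

open Real Finset

namespace Vale.Agent.P004H.H181

open ArithmeticFunction P004.PSav

/-- `V` at `1` -/
noncomputable def e1 (V : ℝ) : ArithmeticFunction ℝ := ⟨fun n => if n = 1 then V else 0, by simp⟩

lemma e1_apply (V : ℝ) (n : ℕ) : e1 V n = if n = 1 then V else 0 := rfl

lemma e1_zeta (V : ℝ) {n : ℕ} (hn : n ≠ 0) :
    (e1 V * ((zeta : ArithmeticFunction ℕ) : ArithmeticFunction ℝ)) n = V := by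
  rw [coe_mul_zeta_apply]
  simp only [e1_apply]
  rw [Finset.sum_ite_eq', if_pos]
  exact Nat.one_mem_divisors.2 hn

lemma wt_sub' (f g : ArithmeticFunction ℝ) : wt (f - g) = wt f - wt g := by
  ext n
  change (f n - g n) / n = f n / n - g n / n
  rw [sub_div]

lemma wt_e1 (V : ℝ) : wt (e1 V) = e1 V := by
  ext n
  rw [wt_apply, e1_apply]
  split_ifs with h
  · rw [h]; simp
  · simp

lemma sum_e1 (V : ℝ) {N : ℕ} (hN : 1 ≤ N) : ∑ n ∈ Ioc 0 N, e1 V n = V := by
  simp only [e1_apply]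
  rw [Finset.sum_ite_eq', if_pos]
  rw [mem_Ioc]; omega

lemma muR_zeta : muR * ((zeta : ArithmeticFunction ℕ) : ArithmeticFunction ℝ) = 1 :=
  coe_moebius_mul_coe_zeta

/-- the Moebius input in the form used by `muconv` -/
lemma mu_input
    (hmu : ∀ A : ℕ, ∃ C : ℝ, ∀ x : ℝ, 2 ≤ x →
      |∑ d ∈ Finset.Icc 1 ⌊x⌋₊, (ArithmeticFunction.moebius d : ℝ) / d| ≤ C / (Real.log x) ^ A)
    (A : ℕ) : ∃ C : ℝ, 0 ≤ C ∧ ∀ M : ℕ,
      |∑ n ∈ Ioc 0 M, wt muR n| ≤ C / (1 + Real.log (M + 1)) ^ A := by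
  obtain ⟨C, hC⟩ := hmu A
  refine ⟨(|C| + 1) * 4 ^ A, by positivity, fun M => ?_⟩
  have hlog2 : (1 / 2 : ℝ) ≤ Real.log 2 := by
    have := Real.log_two_gt_d9
    linarith
  rcases Nat.lt_or_ge M 2 with hM | hM
  · have h1 : |∑ n ∈ Ioc 0 M, wt muR n| ≤ 1 := by
      interval_cases M
      · simp
      · simp [wt_apply, muR_apply]
    refine h1.trans ?_
    have h2 : 0 ≤ Real.log ((M : ℝ) + 1) := Real.log_nonneg (by
      have : (0 : ℝ) ≤ M := Nat.cast_nonneg M
      linarith)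
    have h3 : 1 + Real.log ((M : ℝ) + 1) ≤ 4 := by
      have h4 : Real.log ((M : ℝ) + 1) ≤ M := by
        have := Real.log_le_sub_one_of_pos (show (0 : ℝ) < (M : ℝ) + 1 by positivity)
        linarith
      have h5 : (M : ℝ) ≤ 2 := by exact_mod_cast hM.le
      linarith
    rw [le_div_iff₀ (by positivity), one_mul]
    calc (1 + Real.log ((M : ℝ) + 1)) ^ A ≤ 4 ^ A := pow_le_pow_left₀ (by linarith) h3 A
      _ ≤ (|C| + 1) * 4 ^ A := by
          have : (0 : ℝ) < 4 ^ A := by positivity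
          nlinarith [abs_nonneg C]
  · have hM2 : (2 : ℝ) ≤ M := by exact_mod_cast hM
    have h1 := hC M hM2
    rw [Nat.floor_natCast] at h1
    have e : ∑ n ∈ Ioc 0 M, wt muR n =
        ∑ d ∈ Finset.Icc 1 M, (ArithmeticFunction.moebius d : ℝ) / d := by
      apply sum_congr
      · ext d; rw [mem_Ioc, mem_Icc]; omega
      · intro d _; rw [wt_apply, muR_apply]
    rw [e]
    refine h1.trans ?_
    have hl : (1 / 2 : ℝ) ≤ Real.log M := hlog2.trans (Real.log_le_log (by norm_num) hM2)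
    have h3 : 1 + Real.log ((M : ℝ) + 1) ≤ 4 * Real.log M := by
      have h4 : Real.log ((M : ℝ) + 1) ≤ Real.log 2 + Real.log M := by
        rw [← Real.log_mul (by norm_num) (by positivity)]
        exact Real.log_le_log (by positivity) (by linarith)
      have h5 : Real.log 2 ≤ Real.log M := Real.log_le_log (by norm_num) hM2
      linarith
    have h4 : 0 ≤ Real.log ((M : ℝ) + 1) := Real.log_nonneg (by linarith)
    rw [div_le_div_iff₀ (by positivity) (by positivity)]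
    calc C * (1 + Real.log ((M : ℝ) + 1)) ^ A ≤ (|C| + 1) * (4 * Real.log M) ^ A := by
          apply mul_le_mul _ (pow_le_pow_left₀ (by linarith) h3 A) (by positivity) (by positivity)
          linarith [le_abs_self C]
      _ = _ := by rw [mul_pow]; ring

lemma wt_mu_le (n : ℕ) : |wt muR n| ≤ 1 / n := by
  rw [wt_apply, muR_apply, abs_div, Nat.abs_cast]
  apply div_le_div_of_nonneg_right _ (Nat.cast_nonneg n)
  have : |moebius n| ≤ 1 := abs_moebius_le_one
  exact_mod_cast this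

lemma summable_wt {f : ArithmeticFunction ℝ}
    (h : Summable (fun n : ℕ => |f n| * (n : ℝ) ^ (-(3 / 4) : ℝ))) :
    Summable (fun n : ℕ => |wt f n| * (n : ℝ) ^ (1 / 4 : ℝ)) := by
  refine h.congr fun n => ?_
  rcases Nat.eq_zero_or_pos n with rfl | hn
  · simp
  · have hn0 : (0 : ℝ) < n := by exact_mod_cast hn
    rw [wt_apply, abs_div, Nat.abs_cast, div_mul_eq_mul_div, mul_div_assoc,
      show (-(3 / 4) : ℝ) = 1 / 4 - 1 by norm_num, Real.rpow_sub hn0, Real.rpow_one]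

/-- **logarithmic saving for `μ * b`** -/
theorem mub {a : ℕ → ℤ} {V C dl : ℝ} (hdl : 0 < dl)
    (hB : ∀ x : ℝ, 1 ≤ x → |∑ k ∈ Finset.Icc 1 ⌊x⌋₊, ball a k - V * x| ≤ C * x ^ (1 - dl))
    (hmu : ∀ A : ℕ, ∃ C : ℝ, ∀ x : ℝ, 2 ≤ x →
      |∑ d ∈ Finset.Icc 1 ⌊x⌋₊, (ArithmeticFunction.moebius d : ℝ) / d| ≤ C / (Real.log x) ^ A) :
    ∃ C' : ℝ, 0 ≤ C' ∧ ∀ N : ℕ, 1 ≤ N →
      |∑ n ∈ Ioc 0 N, wt (muR * (sqI * L2 a)) n - V| ≤ C' / (1 + Real.log N) ^ 2 := by
  set δ := min dl 1 with hδ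
  have hδ0 : 0 < δ := lt_min hdl one_pos
  have hδ1 : δ ≤ 1 := min_le_right _ _
  have hC : 0 ≤ C := by
    have := (abs_nonneg _).trans (hB 1 le_rfl)
    simpa using this
  set β : ArithmeticFunction ℝ :=
    sqI * L2 a - e1 V * ((zeta : ArithmeticFunction ℕ) : ArithmeticFunction ℝ) with hβ
  have hβa : ∀ k : ℕ, k ≠ 0 → β k = ball a k - V := by
    intro k hk
    change (sqI * L2 a) k - (e1 V * ((zeta : ArithmeticFunction ℕ) : ArithmeticFunction ℝ)) k = _
    rw [ball_eq, e1_zeta V hk]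
  have hsum : ∀ N : ℕ, ∑ k ∈ Ioc 0 N, β k = ∑ k ∈ Finset.Icc 1 N, ball a k - V * N := by
    intro N
    have h1 : ∑ k ∈ Ioc 0 N, β k = ∑ k ∈ Finset.Icc 1 N, (ball a k - V) := by
      apply sum_congr
      · ext d; rw [mem_Ioc, mem_Icc]; omega
      · intro k hk
        rw [mem_Icc] at hk
        exact hβa k (by omega)
    rw [h1, sum_sub_distrib, sum_const, Nat.card_Icc, nsmul_eq_mul]
    push_cast
    ring
  have hBN : ∀ N : ℕ, 1 ≤ N → |∑ k ∈ Ioc 0 N, β k| ≤ C * (N : ℝ) ^ (1 - δ) := by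
    intro N hN
    have hN1 : (1 : ℝ) ≤ N := by exact_mod_cast hN
    rw [hsum]
    have h1 := hB N hN1
    rw [Nat.floor_natCast] at h1
    refine h1.trans (mul_le_mul_of_nonneg_left ?_ hC)
    exact Real.rpow_le_rpow_of_exponent_le hN1 (by linarith [min_le_left dl 1])
  obtain ⟨E, Cg, -, hE⟩ := part_sum hδ0 hδ1 hBN
  have hbnn : ∀ k, 0 ≤ ball a k := by
    intro k
    apply sum_nonneg
    intro n _
    positivity
  have hab : ∀ M : ℕ, ∑ k ∈ Ioc 0 M, |wt β k| ≤ (C + 2 * |V|) * M := by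
    intro M
    rcases Nat.eq_zero_or_pos M with rfl | hM
    · simp
    have hM1 : (1 : ℝ) ≤ M := by exact_mod_cast hM
    have h1 : ∀ k ∈ Ioc 0 M, |wt β k| ≤ ball a k + |V| := by
      intro k hk
      rw [mem_Ioc] at hk
      have hk1 : (1 : ℝ) ≤ k := by exact_mod_cast hk.1
      rw [wt_apply, abs_div, Nat.abs_cast, hβa k (by omega)]
      have h2 : |ball a k - V| ≤ ball a k + |V| := by
        refine (abs_sub _ _).trans ?_
        rw [abs_of_nonneg (hbnn k)]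
      exact (div_le_self (abs_nonneg _) hk1).trans h2
    refine (sum_le_sum h1).trans ?_
    rw [sum_add_distrib, sum_const, Nat.card_Ioc, nsmul_eq_mul]
    have h2 := hBN M hM
    rw [hsum] at h2
    have h3 := (abs_le.1 h2).2
    have h4 : (M : ℝ) ^ (1 - δ) ≤ M := by
      calc (M : ℝ) ^ (1 - δ) ≤ (M : ℝ) ^ (1 : ℝ) :=
            Real.rpow_le_rpow_of_exponent_le hM1 (by linarith)
        _ = M := Real.rpow_one _
    have h5 : V * M ≤ |V| * M := mul_le_mul_of_nonneg_right (le_abs_self V) (by linarith)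
    have h6 : C * (M : ℝ) ^ (1 - δ) ≤ C * M := mul_le_mul_of_nonneg_left h4 hC
    have h7 : ∑ k ∈ Ioc 0 M, ball a k = ∑ k ∈ Finset.Icc 1 M, ball a k := by
      apply sum_congr _ (fun _ _ => rfl)
      ext d; rw [mem_Ioc, mem_Icc]; omega
    rw [h7, Nat.sub_zero]
    linarith
  obtain ⟨C', hC', h⟩ := muconv (m := wt muR) (g := wt β) wt_mu_le (mu_input hmu) hδ0
    (E := E) (Cg := Cg) (fun M hM => by
      have := hE M hM
      simpa only [wt_apply] using this) (by positivity) hab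
  refine ⟨C', hC', fun N hN => ?_⟩
  have h1 := h N hN
  have eβ : muR * β = muR * (sqI * L2 a) - e1 V := by
    rw [hβ, mul_sub, ← mul_assoc muR (e1 V), mul_comm muR (e1 V), mul_assoc (e1 V), muR_zeta,
      mul_one]
  rw [← wt_mul, eβ, wt_sub', wt_e1] at h1
  have h2 : ∑ n ∈ Ioc 0 N, (wt (muR * (sqI * L2 a)) - e1 V) n =
      ∑ n ∈ Ioc 0 N, wt (muR * (sqI * L2 a)) n - V := by
    calc ∑ n ∈ Ioc 0 N, (wt (muR * (sqI * L2 a)) - e1 V) n
        = ∑ n ∈ Ioc 0 N, (wt (muR * (sqI * L2 a)) n - e1 V n) := rfl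
      _ = _ := by rw [sum_sub_distrib, sum_e1 V hN]
  rw [h2] at h1
  exact h1

open P004G in
open scoped Classical in
/-- **Module N1, weak form** -/
theorem n1w [Crv] {a : ℕ → ℤ} (H : Rl a) (h11 : 11 ∣ bd)
    (hsq : ∀ n : ℕ, n.Coprime bd → (ca n) ^ 2 = (a n) ^ 2)
    {V C dl : ℝ} (hdl : 0 < dl)
    (hB : ∀ x : ℝ, 1 ≤ x → |∑ k ∈ Finset.Icc 1 ⌊x⌋₊, ball a k - V * x| ≤ C * x ^ (1 - dl))
    (hmu : ∀ A : ℕ, ∃ C : ℝ, ∀ x : ℝ, 2 ≤ x →
      |∑ d ∈ Finset.Icc 1 ⌊x⌋₊, (ArithmeticFunction.moebius d : ℝ) / d| ≤ C / (Real.log x) ^ A) :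
    ∃ (C D : ℝ), 1 ≤ C ∧ ∀ x : ℝ, 1 ≤ x →
      |∑ a ∈ (Finset.Icc 1 ⌊x⌋₊).filter (fun a => Squarefree a ∧ a.Coprime bd),
        (∏ p ∈ a.primeFactors, (lam p ^ 2 - 1)) / (a : ℝ) - D| ≤ C / (1 + Real.log x) ^ 2 := by
  obtain ⟨C1, hC1, h1⟩ := mub hdl hB hmu
  have hbd : bd ≠ 0 := Crv.bd_ne
  -- the two absolutely convergent factors
  have hs1 : Summable (fun n : ℕ => |mf (g3 (uM bd a) (vM bd a) (wM bd)) n| *
      (n : ℝ) ^ (-(3 / 4) : ℝ)) := by
    apply summable_of_ne_finset_zero (s := (bd ^ 3).divisors)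
    intro n hn
    have : mf (g3 (uM bd a) (vM bd a) (wM bd)) n = 0 := by
      by_contra h
      apply hn
      rw [Nat.mem_divisors]
      refine ⟨g3_support hbd ?_ h, pow_ne_zero 3 hbd⟩
      intro p _ hd
      exact ⟨by rw [uM, if_neg hd], by rw [vM, if_neg hd], by rw [wM, if_neg hd]⟩
    rw [this]; simp
  have hr : ∀ p, |rM bd a p| ≤ 2 := by
    intro p
    rw [rM]
    split_ifs with h
    · have hp0 : (0 : ℝ) < p := by exact_mod_cast h.1.pos
      have h2 : (a p : ℝ) ^ 2 = (ca p : ℝ) ^ 2 := by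
        have := hsq p ((Nat.Prime.coprime_iff_not_dvd h.1).2 h.2)
        exact_mod_cast this.symm
      have h3 := Crv.c_bound p
      have h4 : P004.dv p = 2 := by
        unfold P004.dv
        rw [h.1.divisors, card_pair h.1.one_lt.ne]
        norm_num
      rw [h4] at h3
      have h5 : (ca p : ℝ) ^ 2 ≤ 4 * p := by
        rw [← sq_abs]
        calc |(ca p : ℝ)| ^ 2 ≤ (2 * √(p : ℝ)) ^ 2 := pow_le_pow_left₀ (abs_nonneg _) h3 2
          _ = 4 * p := by rw [mul_pow, Real.sq_sqrt hp0.le]; norm_num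
      have h6 : (a p : ℝ) ^ 2 / p ≤ 4 := by
        rw [div_le_iff₀ hp0, h2]; exact h5
      have h7 : 0 ≤ (a p : ℝ) ^ 2 / p := by positivity
      rw [rq, abs_le]
      constructor <;> linarith
    · simp
  have hc : ∀ p, |cM bd p| ≤ 1 := by
    intro p
    rw [cM]
    split_ifs <;> simp
  have hs2 := gh_summable hc hr
  obtain ⟨W1, C2, hC2, h2⟩ := absconv hC1 h1 (summable_wt hs1)
  obtain ⟨W2, C3, hC3, h3⟩ := absconv hC2 h2 (summable_wt hs2)
  rw [← wt_mul, ← wt_mul, ← main_id H h11] at h3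
  refine ⟨4 * C3 + 1, W2, by linarith, fun x hx => ?_⟩
  set N := ⌊x⌋₊ with hN
  have hN1 : 1 ≤ N := by
    rw [hN, Nat.one_le_floor_iff]; exact hx
  have e : ∑ n ∈ (Finset.Icc 1 N).filter (fun n => Squarefree n ∧ n.Coprime bd),
      (∏ p ∈ n.primeFactors, (lam p ^ 2 - 1)) / (n : ℝ) =
        ∑ n ∈ Ioc 0 N, wt (mf (gb (cM bd) (rM bd a))) n := by
    rw [sum_filter]
    apply sum_congr
    · ext d
      rw [mem_Icc, mem_Ioc]; omega
    · intro n hn
      rw [mem_Ioc] at hn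
      rw [wt_apply, gb_eq (by omega)]
      split_ifs with h
      · congr 1
        apply prod_congr rfl
        intro p hp
        rw [Nat.mem_primeFactors] at hp
        have hpc : p.Coprime bd := h.2.coprime_dvd_left hp.2.1
        have h4 : (a p : ℝ) ^ 2 = (ca p : ℝ) ^ 2 := by
          have := hsq p hpc
          exact_mod_cast this.symm
        rw [lam, h4, div_pow, Real.sq_sqrt (Nat.cast_nonneg p)]
      · rw [zero_div]
  rw [e]
  refine (h3 N hN1).trans ?_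
  have hN0 : (0 : ℝ) < N := by exact_mod_cast hN1
  have hNR : (1 : ℝ) ≤ N := by exact_mod_cast hN1
  have h4 : x ≤ 2 * N := by
    have h5 := Nat.lt_floor_add_one x
    rw [← hN] at h5
    linarith
  have h5 : 1 + Real.log x ≤ 2 * (1 + Real.log N) := by
    have h6 : Real.log x ≤ Real.log 2 + Real.log N := by
      rw [← Real.log_mul (by norm_num) (by positivity)]
      exact Real.log_le_log (by linarith) h4
    have h7 : Real.log 2 ≤ 1 := by
      have := Real.log_two_lt_d9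
      linarith
    have h8 : 0 ≤ Real.log N := Real.log_nonneg hNR
    linarith
  have h6 : 0 ≤ Real.log x := Real.log_nonneg hx
  have h8 : 0 ≤ Real.log N := Real.log_nonneg hNR
  rw [div_le_div_iff₀ (by positivity) (by positivity)]
  have h9 : (1 + Real.log x) ^ 2 ≤ 4 * (1 + Real.log N) ^ 2 := by
    calc (1 + Real.log x) ^ 2 ≤ (2 * (1 + Real.log N)) ^ 2 := pow_le_pow_left₀ (by linarith) h5 2
      _ = _ := by ring
  have h10 : 0 ≤ (1 + Real.log N) ^ 2 := by positivity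
  calc C3 * (1 + Real.log x) ^ 2 ≤ C3 * (4 * (1 + Real.log N) ^ 2) :=
        mul_le_mul_of_nonneg_left h9 hC3
    _ ≤ (4 * C3 + 1) * (1 + Real.log N) ^ 2 := by linarith

end Vale.Agent.P004H.H181
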