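import Vale.Agent.P004H.H181.N1b

/-!
# The squarefree function from the Rankin-Selberg coefficients
-/

open Real Finset

namespace Vale.Agent.P004H.H181

open ArithmeticFunction P004.PSav

/-- local values: `1 + u X + v X² + w X³` -/
def g3 (u v w : ℕ → ℝ) (p : ℕ) : ℕ → ℝ
  | 0 => 1
  | 1 => u p
  | 2 => v p
  | 3 => w p
  | _ => 0

open PowerSeries in
lemma ser_g3 (u v w : ℕ → ℝ) {p : ℕ} (hp : p.Prime) :
    ser (mf (g3 u v w)) p = 1 + C (u p) * X + C (v p) * X ^ 2 + C (w p) * X ^ 3 := by
  ext k
  rw [map_add, map_add, map_add, coeff_C_mul, coeff_C_mul, coeff_C_mul, coeff_X_pow, coeff_X_pow,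
    coeff_X, coeff_one]
  simp only [ser, coeff_mk]
  rw [mf_pp (fun _ => rfl) hp]
  rcases k with _ | _ | _ | _ | k <;> simp [g3]

/-- finite support -/
lemma g3_support {u v w : ℕ → ℝ} {M : ℕ} (hM : M ≠ 0)
    (h : ∀ p, p.Prime → ¬ p ∣ M → u p = 0 ∧ v p = 0 ∧ w p = 0) {n : ℕ}
    (hn : mf (g3 u v w) n ≠ 0) : n ∣ M ^ 3 := by
  have h0 : n ≠ 0 := by
    rintro rfl
    exact hn ArithmeticFunction.map_zero
  rw [← Nat.factorization_le_iff_dvd h0 (pow_ne_zero 3 hM)]
  intro p
  rw [Nat.factorization_pow, Finsupp.smul_apply, smul_eq_mul]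
  by_contra hcon
  push Not at hcon
  apply hn
  rw [mf_apply _ h0, Finsupp.prod]
  have hp0 : n.factorization p ≠ 0 := by omega
  have hpm : p ∈ n.factorization.support := Finsupp.mem_support_iff.2 hp0
  have hpp : p.Prime := by
    rw [Nat.support_factorization] at hpm
    exact Nat.prime_of_mem_primeFactors hpm
  apply prod_eq_zero hpm
  by_cases hd : p ∣ M
  · have h1 : 1 ≤ M.factorization p := (hpp.dvd_iff_one_le_factorization hM).1 hd
    obtain ⟨k, hk⟩ : ∃ k, n.factorization p = k + 4 := ⟨n.factorization p - 4, by omega⟩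
    rw [hk]
    rfl
  · obtain ⟨h1, h2, h3⟩ := h p hpp hd
    obtain ⟨k, hk⟩ : ∃ k, n.factorization p = k + 1 := ⟨n.factorization p - 1, by omega⟩
    rw [hk]
    rcases k with _ | _ | _ | k
    · exact h1
    · exact h2
    · exact h3
    · rfl

variable (M : ℕ) (a : ℕ → ℤ)

open scoped Classical in
/-- local data -/
noncomputable def cM (p : ℕ) : ℝ := if p ∣ M then 0 else 1
open scoped Classical in
/-- local data -/
noncomputable def rM (p : ℕ) : ℝ := if p.Prime ∧ ¬ p ∣ M then rq a p else 0
open scoped Classical in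
/-- local data -/
noncomputable def uM (p : ℕ) : ℝ := if p ∣ M then (if p = 11 then 10 / 11 else -(1 + rq a p)) else 0
open scoped Classical in
/-- local data -/
noncomputable def vM (p : ℕ) : ℝ := if p ∣ M then (if p = 11 then -(1 / 11) else 1 + rq a p) else 0
open scoped Classical in
/-- local data -/
noncomputable def wM (p : ℕ) : ℝ := if p ∣ M then (if p = 11 then 0 else -1) else 0

variable {M a}

/-- the identity between the Dirichlet series -/
theorem main_id (H : Rl a) (h11 : 11 ∣ M) :
    mf (gb (cM M) (rM M a)) =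
      muR * (sqI * L2 a) * mf (g3 (uM M a) (vM M a) (wM M)) * mf (gh (cM M) (rM M a)) := by
  rw [IsMultiplicative.eq_iff_eq_on_prime_powers _ (mf_mult _) _
    (((muR_mult.mul (sqI_mult.mul (L2_mult H))).mul (mf_mult _)).mul (mf_mult _))]
  intro p k hp
  have h3 : ser (mf (gb (cM M) (rM M a))) p =
      ser (muR * (sqI * L2 a) * mf (g3 (uM M a) (vM M a) (wM M)) * mf (gh (cM M) (rM M a))) p := by
    rw [ser_mul _ _ hp, ser_mul _ _ hp, ser_mul _ _ hp, ser_mul _ _ hp, ser_gb _ _ hp,
      ser_gh _ _ hp, ser_g3 _ _ _ hp, ser_muR hp]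
    have hS := ser_sqI hp
    set S := ser sqI p with hSd
    set R := ser (L2 a) p with hRd
    set X : PowerSeries ℝ := PowerSeries.X with hX
    by_cases hd : p ∣ M
    · have ec : cM M p = 0 := by rw [cM, if_pos hd]
      have er : rM M a p = 0 := by rw [rM, if_neg (fun h => h.2 hd)]
      rw [ec, er]
      by_cases h1 : p = 11
      · subst h1
        have hR := ser_L2_el H
        rw [← hRd] at hR
        have eu : uM M a 11 = 1 - 1 / 11 := by rw [uM, if_pos hd, if_pos rfl]; norm_num
        have ev : vM M a 11 = -(1 / 11) := by rw [vM, if_pos hd, if_pos rfl]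
        have ew : wM M 11 = 0 := by rw [wM, if_pos hd, if_pos rfl]
        rw [eu, ev, ew]
        simp only [_root_.map_zero, map_sub, map_neg, map_one, add_zero, zero_mul, sub_zero, mul_one]
        set c : PowerSeries ℝ := PowerSeries.C (1 / 11 : ℝ) with hc
        calc (1 : PowerSeries ℝ) = (S * (1 - X ^ 2)) * (R * (1 - c * X)) := by rw [hS, hR, one_mul]
          _ = (1 - X) * (S * R) * (1 + (1 - c) * X + -c * X ^ 2) := by ring
      · have hR := ser_L2 H hp h1
        rw [← hRd] at hR
        have eu : uM M a p = -(1 + rq a p) := by rw [uM, if_pos hd, if_neg h1]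
        have ev : vM M a p = 1 + rq a p := by rw [vM, if_pos hd, if_neg h1]
        have ew : wM M p = -1 := by rw [wM, if_pos hd, if_neg h1]
        rw [eu, ev, ew]
        simp only [_root_.map_zero, map_add, map_neg, map_one, add_zero, zero_mul, sub_zero, mul_one]
        set c : PowerSeries ℝ := PowerSeries.C (rq a p) with hc
        calc (1 : PowerSeries ℝ) = S * (1 - X ^ 2) := hS.symm
          _ = (1 - X) * S * (1 + X) := by ring
          _ = (1 - X) * S * (R * ((1 - X) * (1 - c * X + X ^ 2))) := by rw [hR]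
          _ = (1 - X) * (S * R) * (1 + -(1 + c) * X + (1 + c) * X ^ 2 + -1 * X ^ 3) := by ring
    · have h1 : p ≠ 11 := fun h => hd (h ▸ h11)
      have hR := ser_L2 H hp h1
      rw [← hRd] at hR
      have ec : cM M p = 1 := by rw [cM, if_neg hd]
      have er : rM M a p = rq a p := by rw [rM, if_pos ⟨hp, hd⟩]
      have eu : uM M a p = 0 := by rw [uM, if_neg hd]
      have ev : vM M a p = 0 := by rw [vM, if_neg hd]
      have ew : wM M p = 0 := by rw [wM, if_neg hd]
      rw [ec, er, eu, ev, ew]
      simp only [_root_.map_zero, map_add, map_one, add_zero, zero_mul, one_mul, mul_one]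
      set c : PowerSeries ℝ := PowerSeries.C (rq a p) with hc
      calc 1 + (1 + c) * X = S * (1 - X ^ 2) * (1 + (1 + c) * X) := by rw [hS, one_mul]
        _ = (1 - X) * S * (1 + X) * (1 + (1 + c) * X) := by ring
        _ = (1 - X) * S * (R * ((1 - X) * (1 - c * X + X ^ 2))) * (1 + (1 + c) * X) := by rw [hR]
        _ = _ := by ring
  have h4 := congrArg (PowerSeries.coeff k) h3
  unfold ser at h4
  rwa [PowerSeries.coeff_mk, PowerSeries.coeff_mk] at h4

/-- the squarefree function -/
lemma gb_eq {n : ℕ} (hn : n ≠ 0) [Decidable (Squarefree n ∧ n.Coprime M)] :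
    mf (gb (cM M) (rM M a)) n = if Squarefree n ∧ n.Coprime M then
      ∏ p ∈ n.primeFactors, ((a p : ℝ) ^ 2 / p - 1) else 0 := by
  rw [mf_apply _ hn, Finsupp.prod, Nat.support_factorization]
  split_ifs with h
  · apply prod_congr rfl
    intro p hp
    rw [Nat.mem_primeFactors] at hp
    have hd : ¬ p ∣ M := fun hd => hp.1.one_lt.ne' (Nat.eq_one_of_dvd_coprimes h.2 hp.2.1 hd)
    rw [Nat.factorization_eq_one_of_squarefree h.1 hp.1 hp.2.1]
    change cM M p + rM M a p = _
    rw [cM, if_neg hd, rM, if_pos ⟨hp.1, hd⟩, rq]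
    ring
  · by_cases hs : Squarefree n
    · have hc : ¬ n.Coprime M := fun hc => h ⟨hs, hc⟩
      obtain ⟨p, hp, h1, h2⟩ := Nat.Prime.not_coprime_iff_dvd.1 hc
      apply prod_eq_zero (i := p) (Nat.mem_primeFactors.2 ⟨hp, h1, hn⟩)
      rw [Nat.factorization_eq_one_of_squarefree hs hp h1]
      change cM M p + rM M a p = 0
      rw [cM, if_pos h2, rM, if_neg (fun h => h.2 h2), add_zero]
    · rw [Nat.squarefree_iff_factorization_le_one hn] at hs
      push Not at hs
      obtain ⟨p, hp⟩ := hs
      have h1 : p ∈ n.primeFactors := by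
        rw [← Nat.support_factorization, Finsupp.mem_support_iff]; omega
      apply prod_eq_zero (i := p) h1
      obtain ⟨k, hk⟩ : ∃ k, n.factorization p = k + 2 := ⟨n.factorization p - 2, by omega⟩
      rw [hk]
      rfl

end Vale.Agent.P004H.H181
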