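import Vale.Agent.P004H.H181.Rep

/-!
# `q`-expansions of `T_p f` and `U_p f`, weight two
-/

open scoped ModularForm MatrixGroups Manifold
open UpperHalfPlane Matrix CongruenceSubgroup

noncomputable section

namespace Vale.Agent.P004H.H181

theorem hs_congr {f g : ℕ → ℂ} {x : ℂ} (h : HasSum g x) (e : ∀ m, f m = g m) : HasSum f x := by
  rw [funext e]
  exact h

theorem slash_tri {f : ℍ → ℂ} {a b d : ℚ} (h : a * d ≠ 0) (ha : 0 < a) (hd : 0 < d) (τ : ℍ) :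
    ∃ τ' : ℍ, (τ' : ℂ) = (a * τ + b) / d ∧
      (f ∣[(2 : ℤ)] ((tri a b d h).map (algebraMap ℚ ℝ))) τ = (a / d : ℂ) * f τ' := by
  set g : GL (Fin 2) ℝ := (tri a b d h).map (algebraMap ℚ ℝ) with hg
  have hM : (g : Matrix (Fin 2) (Fin 2) ℝ) = !![(a : ℝ), b; 0, d] := tri_coe a b d h
  have hdet : g.det.val = a * d := by
    rw [GeneralLinearGroup.val_det_apply, hM, Matrix.det_fin_two_of]; ring
  have hpos : 0 < g.det.val := by
    rw [hdet]; exact_mod_cast mul_pos ha hd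
  refine ⟨g • τ, ?_, ?_⟩
  · rw [UpperHalfPlane.coe_smul_of_det_pos hpos]
    simp [UpperHalfPlane.num, UpperHalfPlane.denom, hM]
  · rw [ModularForm.slash_apply]
    have hσ : σ g (f (g • τ)) = f (g • τ) := by
      rw [σ, if_pos hpos]
      rfl
    rw [hσ, hdet]
    have hde : UpperHalfPlane.denom g τ = d := by
      simp [UpperHalfPlane.denom, hM]
    rw [hde]
    have : |(a : ℝ) * d| = a * d := abs_of_pos (by exact_mod_cast mul_pos ha hd)
    rw [this]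
    have hd0 : (d : ℂ) ≠ 0 := by exact_mod_cast hd.ne'
    push_cast
    rw [_root_.zpow_neg]
    norm_num
    field_simp

variable (p : ℕ) [hp : Fact p.Prime]

omit hp in
/-- orthogonality -/
theorem sum_root (hp : p.Prime) (m : ℕ) :
    ∑ j : Fin p, Complex.exp (2 * Real.pi * Complex.I * (m * (j : ℕ) / p)) =
      if p ∣ m then (p : ℂ) else 0 := by
  have hp0 : (p : ℂ) ≠ 0 := by exact_mod_cast hp.ne_zero
  set ζ : ℂ := Complex.exp (2 * Real.pi * Complex.I / p) with hζ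
  have hprim : IsPrimitiveRoot ζ p := Complex.isPrimitiveRoot_exp p hp.ne_zero
  have e1 : ∀ j : Fin p, Complex.exp (2 * Real.pi * Complex.I * (m * (j : ℕ) / p)) =
      (ζ ^ m) ^ (j : ℕ) := by
    intro j
    rw [hζ, ← Complex.exp_nat_mul, ← Complex.exp_nat_mul]
    congr 1
    ring
  simp_rw [e1]
  rw [Fin.sum_univ_eq_sum_range (fun j => (ζ ^ m) ^ j) p]
  split_ifs with h
  · have : ζ ^ m = 1 := (hprim.pow_eq_one_iff_dvd m).2 h
    simp [this]
  · have h1 : ζ ^ m ≠ 1 := fun h2 => h ((hprim.pow_eq_one_iff_dvd m).1 h2)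
    rw [geom_sum_eq h1, ← pow_mul, mul_comm m p, pow_mul, hprim.pow_eq_one, one_pow, sub_self,
      zero_div]

/-- the `U_p` part -/
theorem hasSum_U {f : ℍ → ℂ} {c : ℕ → ℂ} (hf : ∀ τ : ℍ, HasSum (fun m => c m • Function.Periodic.qParam 1 τ ^ m) (f τ))
    (τ : ℍ) :
    HasSum (fun m => c (p * m) • Function.Periodic.qParam 1 τ ^ m)
      (∑ j : Fin p, (f ∣[(2 : ℤ)] ((bU p j).map (algebraMap ℚ ℝ))) τ) := by
  have hp1 := hp.out
  have hp0 : (p : ℂ) ≠ 0 := by exact_mod_cast hp1.ne_zero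
  have h1 : ∀ j : Fin p, HasSum (fun m => c m * (Complex.exp (2 * Real.pi * Complex.I *
      (m * τ / p)) * (Complex.exp (2 * Real.pi * Complex.I * (m * (j : ℕ) / p)) / p)))
      ((f ∣[(2 : ℤ)] ((bU p j).map (algebraMap ℚ ℝ))) τ) := by
    intro j
    obtain ⟨τ', e1, e2⟩ := slash_tri (f := f) (a := 1) (b := ((j : ℕ) : ℚ)) (d := (p : ℚ))
      (by simpa using hp1.ne_zero) one_pos (by exact_mod_cast hp1.pos) τ
    rw [bU, e2]
    have h := (hf τ').mul_left (((1 : ℚ) : ℂ) / ((p : ℚ) : ℂ))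
    refine hs_congr h fun m => ?_
    rw [Function.Periodic.qParam, ← Complex.exp_nat_mul, e1, smul_eq_mul]
    have e3 : (m : ℂ) * (2 * Real.pi * Complex.I * ((((1 : ℚ) : ℂ) * τ + (((j : ℕ) : ℚ) : ℂ)) /
        ((p : ℚ) : ℂ)) / ((1 : ℝ) : ℂ)) = 2 * Real.pi * Complex.I * (m * τ / p) +
          2 * Real.pi * Complex.I * (m * (j : ℕ) / p) := by
      push_cast
      field_simp
    rw [e3, Complex.exp_add]
    push_cast
    ring
  have h2 := hasSum_sum (fun j (_ : j ∈ (Finset.univ : Finset (Fin p))) => h1 j)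
  have h3 : HasSum (fun m : ℕ => if p ∣ m then c m * Complex.exp (2 * Real.pi * Complex.I *
      (m * τ / p)) else 0)
      (∑ j : Fin p, (f ∣[(2 : ℤ)] ((bU p j).map (algebraMap ℚ ℝ))) τ) := by
    convert h2 using 2 with m
    rw [← Finset.mul_sum, ← Finset.mul_sum, ← Finset.sum_div, sum_root p hp1 m]
    split_ifs with h
    · field_simp
    · simp
  have inj : Function.Injective (fun m : ℕ => p * m) := fun a b h =>
    Nat.eq_of_mul_eq_mul_left hp1.pos h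
  have h4 := (inj.hasSum_iff (f := fun m : ℕ => if p ∣ m then c m * Complex.exp (2 * Real.pi *
    Complex.I * (m * τ / p)) else 0) (by
      intro x hx
      rw [if_neg]
      rintro ⟨y, rfl⟩
      exact hx ⟨y, rfl⟩)).2 h3
  convert h4 using 2 with m
  simp only [Function.comp_apply, dvd_mul_right, if_true]
  rw [Function.Periodic.qParam, ← Complex.exp_nat_mul, smul_eq_mul]
  congr 2
  push_cast
  field_simp

/-- the `V_p` part -/
theorem hasSum_V {f : ℍ → ℂ} {c : ℕ → ℂ} (hf : ∀ τ : ℍ, HasSum (fun m => c m • Function.Periodic.qParam 1 τ ^ m) (f τ))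
    (τ : ℍ) :
    HasSum (fun m => (if p ∣ m then (p : ℂ) * c (m / p) else 0) • Function.Periodic.qParam 1 τ ^ m)
      ((f ∣[(2 : ℤ)] ((bT p none).map (algebraMap ℚ ℝ))) τ) := by
  have hp1 := hp.out
  have hp0 : (p : ℂ) ≠ 0 := by exact_mod_cast hp1.ne_zero
  obtain ⟨τ', e1, e2⟩ := slash_tri (f := f) (a := (p : ℚ)) (b := 0) (d := 1)
      (by simpa using hp1.ne_zero) (by exact_mod_cast hp1.pos) one_pos τ
  rw [bT, e2]
  have inj : Function.Injective (fun m : ℕ => p * m) := fun a b h =>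
    Nat.eq_of_mul_eq_mul_left hp1.pos h
  refine (inj.hasSum_iff ?_).1 ?_
  · intro x hx
    rw [if_neg, zero_smul]
    rintro ⟨y, rfl⟩
    exact hx ⟨y, rfl⟩
  · have h := (hf τ').mul_left (((p : ℚ) : ℂ) / ((1 : ℚ) : ℂ))
    refine hs_congr h fun m => ?_
    simp only [Function.comp_apply, dvd_mul_right, if_true]
    rw [Nat.mul_div_cancel_left _ hp1.pos, Function.Periodic.qParam, Function.Periodic.qParam,
      ← Complex.exp_nat_mul, ← Complex.exp_nat_mul, e1, smul_eq_mul, smul_eq_mul]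
    have e3 : ((p * m : ℕ) : ℂ) * (2 * Real.pi * Complex.I * τ / ((1 : ℝ) : ℂ)) =
        (m : ℂ) * (2 * Real.pi * Complex.I * ((((p : ℚ) : ℂ) * τ + ((0 : ℚ) : ℂ)) /
        ((1 : ℚ) : ℂ)) / ((1 : ℝ) : ℂ)) := by
      push_cast
      ring
    rw [e3]
    push_cast
    ring

/-- `T_p f` for `f` in `S_2(Gamma0 N)`, `p` prime to `N` -/
def Tp {N : ℕ} [NeZero N] (hN : ¬ p ∣ N)
    (f : CuspForm ((Gamma0 N : Subgroup SL(2, ℤ)) : Subgroup (GL (Fin 2) ℝ)) 2) :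
    CuspForm ((Gamma0 N : Subgroup SL(2, ℤ)) : Subgroup (GL (Fin 2) ℝ)) 2 :=
  heckeSum _ (bT p) (repsT p N hN) f

/-- `U_p f` for `f` in `S_2(Gamma0 N)`, `p` dividing `N` -/
def Up {N : ℕ} [NeZero N] (hN : p ∣ N)
    (f : CuspForm ((Gamma0 N : Subgroup SL(2, ℤ)) : Subgroup (GL (Fin 2) ℝ)) 2) :
    CuspForm ((Gamma0 N : Subgroup SL(2, ℤ)) : Subgroup (GL (Fin 2) ℝ)) 2 :=
  heckeSum _ (bU p) (repsU p N hN) f

theorem hasSum_Tp {N : ℕ} [NeZero N] (hN : ¬ p ∣ N)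
    (f : CuspForm ((Gamma0 N : Subgroup SL(2, ℤ)) : Subgroup (GL (Fin 2) ℝ)) 2)
    {c : ℕ → ℂ} (hf : ∀ τ : ℍ, HasSum (fun m => c m • Function.Periodic.qParam 1 τ ^ m) (f τ)) (τ : ℍ) :
    HasSum (fun m => (c (p * m) + if p ∣ m then (p : ℂ) * c (m / p) else 0) • Function.Periodic.qParam 1 τ ^ m)
      (Tp p hN f τ) := by
  have h := (hasSum_U p hf τ).add (hasSum_V p hf τ)
  have e : (Tp p hN f) τ = ∑ j : Fin p, ((f : ℍ → ℂ) ∣[(2 : ℤ)] ((bU p j).map (algebraMap ℚ ℝ))) τ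
      + ((f : ℍ → ℂ) ∣[(2 : ℤ)] ((bT p none).map (algebraMap ℚ ℝ))) τ := by
    change (∑ i, (f : ℍ → ℂ) ∣[(2 : ℤ)] ((bT p i).map (algebraMap ℚ ℝ))) τ = _
    rw [Fintype.sum_option, Pi.add_apply, Finset.sum_apply, add_comm]
    rfl
  rw [e]
  convert h using 2 with m
  rw [← add_smul]

theorem hasSum_Up {N : ℕ} [NeZero N] (hN : p ∣ N)
    (f : CuspForm ((Gamma0 N : Subgroup SL(2, ℤ)) : Subgroup (GL (Fin 2) ℝ)) 2)
    {c : ℕ → ℂ} (hf : ∀ τ : ℍ, HasSum (fun m => c m • Function.Periodic.qParam 1 τ ^ m) (f τ)) (τ : ℍ) :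
    HasSum (fun m => c (p * m) • Function.Periodic.qParam 1 τ ^ m) (Up p hN f τ) := by
  have h := hasSum_U p hf τ
  have e : (Up p hN f) τ = ∑ j : Fin p, ((f : ℍ → ℂ) ∣[(2 : ℤ)] ((bU p j).map (algebraMap ℚ ℝ))) τ
      := by
    change (∑ i, (f : ℍ → ℂ) ∣[(2 : ℤ)] ((bU p i).map (algebraMap ℚ ℝ))) τ = _
    rw [Finset.sum_apply]
  rw [e]
  exact h

end Vale.Agent.P004H.H181
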