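import Vale.Agent.P004H.H181.Hecke

/-!
# The representatives of the Hecke operators at a prime
-/

open scoped ModularForm MatrixGroups Manifold
open UpperHalfPlane Matrix CongruenceSubgroup

noncomputable section

namespace Vale.Agent.P004H.H181

/-- upper triangular rational matrix `[a, b; 0, d]` -/
def tri (a b d : ℚ) (h : a * d ≠ 0) : GL (Fin 2) ℚ :=
  GeneralLinearGroup.mkOfDetNeZero !![a, b; 0, d] (by simpa [Matrix.det_fin_two] using h)

theorem tri_coe (a b d : ℚ) (h : a * d ≠ 0) :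
    (((tri a b d h).map (algebraMap ℚ ℝ) : GL (Fin 2) ℝ) : Matrix (Fin 2) (Fin 2) ℝ) =
      !![(a : ℝ), b; 0, d] := by
  ext i j
  fin_cases i <;> fin_cases j <;> simp [tri]

variable (p : ℕ) [hp : Fact p.Prime]

/-- the representatives of `T_p`, `p` prime to the level -/
def bT : Option (Fin p) → GL (Fin 2) ℚ
  | none => tri p 0 1 (by simpa using hp.out.ne_zero)
  | some j => tri 1 j p (by simpa using hp.out.ne_zero)

/-- the representatives of `U_p`, `p` dividing the level -/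
def bU (j : Fin p) : GL (Fin 2) ℚ := tri 1 j p (by simpa using hp.out.ne_zero)

omit hp in
theorem key1 (hp : p.Prime) {a b c d : ℤ} (hdet : a * d - b * c = p)
    (h : ¬ ((p : ℤ) ∣ a ∧ (p : ℤ) ∣ c)) :
    ∃ j : Fin p, ∃ u v : ℤ, b = a * (j : ℕ) + u * p ∧ d = c * (j : ℕ) + v * p := by
  have : Fact p.Prime := ⟨hp⟩
  have hd : ((a : ZMod p)) * d - b * c = 0 := by
    have := congrArg (fun x : ℤ => (x : ZMod p)) hdet
    simpa using this
  have ex : ∃ t : ZMod p, (b : ZMod p) = a * t ∧ (d : ZMod p) = c * t := by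
    by_cases h0 : (a : ZMod p) = 0
    · have h1 : (c : ZMod p) ≠ 0 := by
        intro h1
        exact h ⟨(ZMod.intCast_zmod_eq_zero_iff_dvd a p).1 h0,
          (ZMod.intCast_zmod_eq_zero_iff_dvd c p).1 h1⟩
      refine ⟨d / c, ?_, by field_simp⟩
      rw [h0] at hd ⊢
      have : (b : ZMod p) * c = 0 := by linear_combination -hd
      rcases mul_eq_zero.1 this with h2 | h2
      · rw [h2]; ring
      · exact absurd h2 h1
    · refine ⟨b / a, by field_simp, ?_⟩
      field_simp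
      linear_combination hd
  obtain ⟨t, h1, h2⟩ := ex
  refine ⟨⟨t.val, ZMod.val_lt t⟩, ?_⟩
  have e : ((t.val : ℤ) : ZMod p) = t := by simp
  have h3 : (p : ℤ) ∣ b - a * (t.val : ℤ) := by
    rw [← ZMod.intCast_zmod_eq_zero_iff_dvd]
    push_cast
    rw [h1]
    simp
  have h4 : (p : ℤ) ∣ d - c * (t.val : ℤ) := by
    rw [← ZMod.intCast_zmod_eq_zero_iff_dvd]
    push_cast
    rw [h2]
    simp
  obtain ⟨u, hu⟩ := h3
  obtain ⟨v, hv⟩ := h4
  refine ⟨u, v, ?_, ?_⟩
  · push_cast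
    linarith
  · push_cast
    linarith

/-- an element of `SL(2, ℤ)` from entries -/
def sl (a b c d : ℤ) (h : a * d - b * c = 1) : SL(2, ℤ) :=
  ⟨!![a, b; c, d], by rw [Matrix.det_fin_two_of]; exact h⟩

theorem sl_coe (a b c d : ℤ) (h : a * d - b * c = 1) :
    ((sl a b c d h : SL(2, ℤ)) : Matrix (Fin 2) (Fin 2) ℤ) = !![a, b; c, d] := rfl

/-- an element of `Gamma0 N` from entries -/
theorem mem_G0 (N : ℕ) {a b c d : ℤ} (h : a * d - b * c = 1) (hN : (N : ℤ) ∣ c) :
    ∃ γ ∈ ((Gamma0 N : Subgroup SL(2, ℤ)) : Subgroup (GL (Fin 2) ℝ)),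
      (γ : Matrix (Fin 2) (Fin 2) ℝ) = !![(a : ℝ), b; c, d] := by
  refine ⟨SpecialLinearGroup.mapGL ℝ (sl a b c d h), ?_, ?_⟩
  · refine Subgroup.mem_map_of_mem _ ?_
    exact (ZMod.intCast_zmod_eq_zero_iff_dvd c N).2 hN
  · rw [SpecialLinearGroup.mapGL_coe_matrix, SpecialLinearGroup.map_apply_coe, sl_coe]
    ext i j
    fin_cases i <;> fin_cases j <;> simp

theorem of_mem_G0 {N : ℕ} {γ : GL (Fin 2) ℝ}
    (h : γ ∈ ((Gamma0 N : Subgroup SL(2, ℤ)) : Subgroup (GL (Fin 2) ℝ))) :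
    ∃ a b c d : ℤ, a * d - b * c = 1 ∧ (N : ℤ) ∣ c ∧
      (γ : Matrix (Fin 2) (Fin 2) ℝ) = !![(a : ℝ), b; c, d] := by
  obtain ⟨g, hg, rfl⟩ := h
  refine ⟨g 0 0, g 0 1, g 1 0, g 1 1, ?_, ?_, ?_⟩
  · have := g.det_coe
    rwa [Matrix.det_fin_two] at this
  · exact (ZMod.intCast_zmod_eq_zero_iff_dvd _ N).1 (Gamma0_mem.1 hg)
  · ext i j
    fin_cases i <;> fin_cases j <;> simp

theorem no_unit (x : ℤ) (h : (1 : ℝ) = x * p) : False := by
  have h1 : (1 : ℤ) = x * p := by exact_mod_cast h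
  have h2 : (p : ℤ) ∣ 1 := ⟨x, by rw [h1]; ring⟩
  have h3 : p ∣ 1 := by exact_mod_cast h2
  exact hp.out.one_lt.ne' (Nat.dvd_one.1 h3)

omit hp in
theorem fin_eq {i j : Fin p} {b : ℤ} (h : ((i : ℕ) : ℝ) = (j : ℕ) + b * p) : i = j := by
  have h1 : ((i : ℕ) : ℤ) = (j : ℕ) + b * p := by exact_mod_cast h
  have h2 : ((i : ℕ) : ℤ) % p = ((j : ℕ) : ℤ) % p := by
    rw [h1]; simp
  have h3 : (i : ℕ) % p = (j : ℕ) % p := by exact_mod_cast h2
  rw [Nat.mod_eq_of_lt i.2, Nat.mod_eq_of_lt j.2] at h3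
  exact Fin.ext h3

theorem repsT (N : ℕ) (hN : ¬ p ∣ N) :
    Reps ((Gamma0 N : Subgroup SL(2, ℤ)) : Subgroup (GL (Fin 2) ℝ))
      (fun i => (bT p i).map (algebraMap ℚ ℝ)) where
  ex := by
    intro i γ hγ
    obtain ⟨a, b, c, d, h1, h2, h3⟩ := of_mem_G0 hγ
    have hp1 := hp.out
    -- the integral matrix `β i * γ`
    obtain ⟨a', b', c', d', hM, hdet, hc⟩ : ∃ a' b' c' d' : ℤ,
        ((((bT p i).map (algebraMap ℚ ℝ)) * γ : GL (Fin 2) ℝ) : Matrix (Fin 2) (Fin 2) ℝ) =
          !![(a' : ℝ), b'; c', d'] ∧ a' * d' - b' * c' = p ∧ (N : ℤ) ∣ c' := by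
      cases i with
      | none =>
        refine ⟨p * a, p * b, c, d, ?_, by linear_combination (p : ℤ) * h1, h2⟩
        rw [Units.val_mul, h3, bT, tri_coe]
        ext i j
        fin_cases i <;> fin_cases j <;> simp [Matrix.mul_apply, Fin.sum_univ_two]
      | some j =>
        refine ⟨a + (j : ℕ) * c, b + (j : ℕ) * d, p * c, p * d, ?_,
          by linear_combination (p : ℤ) * h1, h2.mul_left _⟩
        rw [Units.val_mul, h3, bT, tri_coe]
        ext i j
        fin_cases i <;> fin_cases j <;> simp [Matrix.mul_apply, Fin.sum_univ_two]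
    by_cases hh : (p : ℤ) ∣ a' ∧ (p : ℤ) ∣ c'
    · obtain ⟨⟨u, hu⟩, ⟨v, hv⟩⟩ := hh
      have e1 : u * d' - b' * v = 1 := by
        have hp0 : (p : ℤ) ≠ 0 := by exact_mod_cast hp1.ne_zero
        apply mul_left_cancel₀ hp0
        rw [hu, hv] at hdet
        linear_combination hdet
      have e2 : (N : ℤ) ∣ v := by
        rw [hv] at hc
        have : IsCoprime (N : ℤ) (p : ℤ) := by
          rw [Nat.isCoprime_iff_coprime]
          exact ((Nat.Prime.coprime_iff_not_dvd hp1).2 hN).symm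
        exact this.dvd_of_dvd_mul_left hc
      obtain ⟨γ', hγ', hγ2⟩ := mem_G0 N e1 e2
      refine ⟨none, γ', hγ', ?_⟩
      apply Units.ext
      rw [hM, Units.val_mul, hγ2, bT, tri_coe, hu, hv]
      ext i j
      fin_cases i <;> fin_cases j <;> simp [Matrix.mul_apply, Fin.sum_univ_two, mul_comm]
    · obtain ⟨j, u, v, hu, hv⟩ := key1 p hp1 hdet hh
      have e1 : a' * v - u * c' = 1 := by
        have hp0 : (p : ℤ) ≠ 0 := by exact_mod_cast hp1.ne_zero
        apply mul_left_cancel₀ hp0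
        rw [hu, hv] at hdet
        linear_combination hdet
      obtain ⟨γ', hγ', hγ2⟩ := mem_G0 N e1 hc
      refine ⟨some j, γ', hγ', ?_⟩
      apply Units.ext
      rw [hM, Units.val_mul, hγ2, bT, tri_coe, hu, hv]
      ext i j
      fin_cases i <;> fin_cases j <;> simp [Matrix.mul_apply, Fin.sum_univ_two]
  uniq := by
    intro i j γ hγ h
    obtain ⟨a, b, c, d, h1, h2, h3⟩ := of_mem_G0 hγ
    have hp1 := hp.out
    have h4 := congrArg (fun x : GL (Fin 2) ℝ => (x : Matrix (Fin 2) (Fin 2) ℝ)) h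
    simp only [Units.val_mul, h3] at h4
    cases i with
    | none =>
      cases j with
      | none => rfl
      | some j =>
        exfalso
        simp only [bT, tri_coe] at h4
        have h10 := congrFun (congrFun h4 1) 0
        have h11 := congrFun (congrFun h4 1) 1
        simp [Matrix.mul_apply, Fin.sum_univ_two] at h10 h11
        rw [← h10] at h11
        exact no_unit p d (by simpa using h11)
    | some i =>
      cases j with
      | none =>
        exfalso
        simp only [bT, tri_coe] at h4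
        have h00 := congrFun (congrFun h4 0) 0
        simp [Matrix.mul_apply, Fin.sum_univ_two] at h00
        exact no_unit p a h00
      | some j =>
        simp only [bT, tri_coe] at h4
        have h00 := congrFun (congrFun h4 0) 0
        have h01 := congrFun (congrFun h4 0) 1
        simp [Matrix.mul_apply, Fin.sum_univ_two] at h00 h01
        rw [← h00, one_mul] at h01
        rw [fin_eq p h01]

theorem repsU (N : ℕ) (hN : p ∣ N) :
    Reps ((Gamma0 N : Subgroup SL(2, ℤ)) : Subgroup (GL (Fin 2) ℝ))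
      (fun i => (bU p i).map (algebraMap ℚ ℝ)) where
  ex := by
    intro j γ hγ
    obtain ⟨a, b, c, d, h1, h2, h3⟩ := of_mem_G0 hγ
    have hp1 := hp.out
    have hdet : (a + (j : ℕ) * c) * (p * d) - (b + (j : ℕ) * d) * (p * c) = p := by
      linear_combination (p : ℤ) * h1
    have hpc : (p : ℤ) ∣ c := dvd_trans (by exact_mod_cast hN) h2
    have hh : ¬ ((p : ℤ) ∣ (a + (j : ℕ) * c) ∧ (p : ℤ) ∣ p * c) := by
      rintro ⟨h4, -⟩
      have h5 : (p : ℤ) ∣ a := (Int.dvd_add_left (hpc.mul_left _)).1 h4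
      have h6 : (p : ℤ) ∣ 1 := by
        rw [← h1]
        exact dvd_sub (h5.mul_right _) (hpc.mul_left _)
      have h7 : p ∣ 1 := by exact_mod_cast h6
      exact hp1.one_lt.ne' (Nat.dvd_one.1 h7)
    obtain ⟨j', u, v, hu, hv⟩ := key1 p hp1 hdet hh
    have e1 : (a + (j : ℕ) * c) * v - u * (p * c) = 1 := by
      have hp0 : (p : ℤ) ≠ 0 := by exact_mod_cast hp1.ne_zero
      apply mul_left_cancel₀ hp0
      rw [hu, hv] at hdet
      linear_combination hdet
    obtain ⟨γ', hγ', hγ2⟩ := mem_G0 N e1 (h2.mul_left _)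
    refine ⟨j', γ', hγ', ?_⟩
    apply Units.ext
    have hu' : (b : ℝ) + (j : ℕ) * d = (a + (j : ℕ) * c) * (j' : ℕ) + u * p := by
      exact_mod_cast hu
    have hv' : (p : ℝ) * d = p * c * (j' : ℕ) + v * p := by
      exact_mod_cast hv
    rw [Units.val_mul, Units.val_mul, hγ2, h3, bU, tri_coe, bU, tri_coe]
    ext i j
    fin_cases i <;> fin_cases j <;>
      simp [Matrix.mul_apply, Fin.sum_univ_two, hu', hv']
  uniq := by
    intro i j γ hγ h
    obtain ⟨a, b, c, d, h1, h2, h3⟩ := of_mem_G0 hγ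
    have h4 := congrArg (fun x : GL (Fin 2) ℝ => (x : Matrix (Fin 2) (Fin 2) ℝ)) h
    simp only [Units.val_mul, h3] at h4
    simp only [bU, tri_coe] at h4
    have h00 := congrFun (congrFun h4 0) 0
    have h01 := congrFun (congrFun h4 0) 1
    simp [Matrix.mul_apply, Fin.sum_univ_two] at h00 h01
    rw [← h00, one_mul] at h01
    exact fin_eq p h01

end Vale.Agent.P004H.H181
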